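import Vale.Agent.P088.H397.GW1

/-!
# P088, theorem C, row C_GW: the maps `x_i + w_i = (πX)⁻¹ log (|u_i| / φ)`
-/

open MeasureTheory Set
open scoped ContDiff Matrix

noncomputable section

namespace Vale.Agent.P088.H397.GW

open Vale.Agent.P088.LR Vale.Agent.P088.LR.CF Vale.Agent.P088.LR.CC

variable {n : ℕ}

theorem bt_triv {φ q₀ : V n → ℝ} (hb : Ba φ q₀) : Bt ∅ φ q₀ (fun _ => 1) q₀ where
  ba := hb
  op := isOpen_empty
  reg := by simp
  sub := empty_subset _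
  sm := fun i j => contDiff_const
  sy := fun x => Matrix.isSymm_one
  off := fun x _ => rfl
  sq := hb.sq
  eq := hb.eq
  st := fun U W _ _ _ _ => by simp [bl]

theorem cl_smul {k : ℕ} {a c : ℝ} {f : V n → ℝ} (hf : ContDiff ℝ ∞ f) (h : Cl k a f)
    (hc : 0 ≤ c) : Cl k (c * a) (fun x => c * f x) := by
  intro l hl x
  have e : iteratedFDeriv ℝ l (fun x => c * f x) x = c • iteratedFDeriv ℝ l f x := by
    have := iteratedFDeriv_const_smul_apply (𝕜 := ℝ) (i := l) (a := c) (f := f) (x := x)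
      (hf.of_le (by exact_mod_cast le_top)).contDiffAt
    simpa [Pi.smul_def] using this
  rw [e, norm_smul, Real.norm_of_nonneg hc]
  exact mul_le_mul_of_nonneg_left (h l hl x) hc

theorem cl_sub {k : ℕ} {a b : ℝ} {f g : V n → ℝ} (hf : ContDiff ℝ ∞ f) (hg : ContDiff ℝ ∞ g)
    (h1 : Cl k a f) (h2 : Cl k b g) : Cl k (a + b) (fun x => f x - g x) := by
  intro l hl x
  have : iteratedFDeriv ℝ l (fun x => f x - g x) x =
      iteratedFDeriv ℝ l f x - iteratedFDeriv ℝ l g x :=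
    iteratedFDeriv_sub_apply (hf.of_le (by exact_mod_cast le_top)).contDiffAt
      (hg.of_le (by exact_mod_cast le_top)).contDiffAt
  rw [this]
  exact (norm_sub_le _ _).trans (add_le_add (h1 l hl x) (h2 l hl x))

theorem cl_mul {k : ℕ} {A B : ℝ} {f g : V n → ℝ} (hf : ContDiff ℝ ∞ f) (hg : ContDiff ℝ ∞ g)
    (hA : Cl k A f) (hB : Cl k B g) : Cl k (2 ^ k * (A * B)) (fun x => f x * g x) := by
  intro l hl x
  have hA0 := cl_nonneg hA
  have hB0 := cl_nonneg hB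
  have h1 := norm_iteratedFDeriv_mul_le (n := l) hf hg x (by exact_mod_cast le_top)
  refine h1.trans ?_
  calc ∑ i ∈ Finset.range (l + 1), (l.choose i : ℝ) * ‖iteratedFDeriv ℝ i f x‖ *
        ‖iteratedFDeriv ℝ (l - i) g x‖
      ≤ ∑ i ∈ Finset.range (l + 1), (l.choose i : ℝ) * (A * B) := by
        refine Finset.sum_le_sum fun i hi => ?_
        have hi' : i ≤ l := by simpa [Nat.lt_succ_iff] using hi
        rw [mul_assoc]
        refine mul_le_mul_of_nonneg_left ?_ (by positivity)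
        exact mul_le_mul (hA i (hi'.trans hl) x) (hB (l - i) (by omega) x) (norm_nonneg _) hA0
    _ = 2 ^ l * (A * B) := by
        rw [← Finset.sum_mul]
        congr 1
        exact_mod_cast Nat.sum_range_choose l
    _ ≤ 2 ^ k * (A * B) := by
        have h3 : (2 : ℝ) ^ l ≤ 2 ^ k := pow_le_pow_right₀ (by norm_num) hl
        gcongr

theorem cl_pi {k : ℕ} {a : ℝ} (ha : 0 ≤ a) {f : V n → V n} (hf : ContDiff ℝ ∞ f)
    (h : ∀ i, Cl k a (fun x => f x i)) : Cl k a f := fun l hl x =>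
  G.norm_iter_pi ha (hf.of_le (by exact_mod_cast le_top)).contDiffAt fun i => h i l hl x

/-- A cut-off: `1` on the core, `0` off the cube. -/
theorem exists_chi (n : ℕ) : ∃ χ : V n → ℝ, ContDiff ℝ ∞ χ ∧ HasCompactSupport χ ∧
    (∀ x ∈ core n, χ x = 1) ∧ ∀ x ∉ cube n, χ x = 0 := by
  let f : ContDiffBump (fun _ => 1 / 2 : V n) := ⟨1 / 4, 3 / 8, by norm_num, by norm_num⟩
  refine ⟨f, f.contDiff, f.hasCompactSupport, fun x hx => f.one_of_mem_closedBall ?_,
    fun x hx => f.zero_of_le_dist ?_⟩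
  · rw [closedBall_pi _ (by norm_num)]
    simp only [mem_univ_pi, Real.closedBall_eq_Icc, mem_Icc]
    intro j
    have := hx j
    constructor <;> linarith [this.1, this.2]
  · by_contra h
    rw [not_le] at h
    refine hx fun j => ?_
    have h1 : dist (x j) (1 / 2) < 3 / 8 := (dist_le_pi_dist x (fun _ => 1 / 2) j).trans_lt h
    rw [Real.dist_eq, abs_lt] at h1
    constructor <;> linarith [h1.1, h1.2]

theorem norm_u {z : Fin n → ℂ} {i : Fin n} {jj : Fin n → Fin n} {X : ℝ} (hX : 0 < X) (x : V n)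
    (hz : z = zs 1 i (xg jj X i)) (w : ℂ) :
    ‖Complex.exp (∑ j, z j * x j) * w‖ = Real.exp (Real.pi * X * x i) * ‖w‖ := by
  rw [norm_mul, Complex.norm_exp]
  congr 2
  rw [Complex.re_sum, Finset.sum_eq_single i]
  · rw [hz]
    simp [zs, nr_xg jj hX]
  · intro j _ hj
    rw [hz]
    simp [zs, hj]
  · intro h
    exact absurd (Finset.mem_univ _) h

/-- Row C_GW. -/
theorem gw (hCG : RowCGC) (hOF : RowOFC) (hBA : RowBAC) : RowGWC := by
  intro n M φ q₀ hb
  have hφ := hb.p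
  have hq0 : ∀ x ∉ bal n, q₀ x = 0 := (hBA.2.2.1 ∅ φ q₀ _ q₀ (bt_triv hb)).1
  have hcore : IsCompact (core n) := G.isCompact_core n
  have hq0c : HasCompactSupport (cx q₀) :=
    HasCompactSupport.intro hcore fun x hx => by
      simp [cx, hq0 x fun h => hx (bal_core h)]
  have hsq : ContDiff ℝ ∞ (cx q₀) := Complex.ofRealCLM.contDiff.comp hb.sq
  obtain ⟨B, hB0, hB⟩ := exists_bd (M + n + 1) hsq hq0c
  have hL : ContDiff ℝ ∞ (fun x => Real.log (φ x)) := hφ.1.log fun x => (hφ.2 x).ne'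
  have hLc : HasCompactSupport (fun x => Real.log (φ x)) :=
    HasCompactSupport.intro hcore fun x hx => by
      simp [hb.one x fun h => hx (bal_core h)]
  obtain ⟨Bφ, hBφ0, hBφ⟩ := exists_bd M hL hLc
  obtain ⟨χ, hχ, hχc, hχ1, hχ0⟩ := exists_chi n
  obtain ⟨Bχ, hBχ0, hBχ⟩ := exists_bd M hχ hχc
  obtain ⟨τ, Bτ, hBτ0, hτ, hτb, hτ1⟩ := exists_tau (M + 1)
  obtain ⟨C₁, hC₁, hcg⟩ := hCG n M B
  obtain ⟨C₂, hC₂, hof⟩ := hOF n B
  obtain ⟨C₃, hC₃, hd⟩ := diffE (E := ℂ) M 1 Bτ le_rfl hBτ0.le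
  set P : ℝ := (2 * Real.pi) ^ M with hP
  have hP1 : 1 ≤ P := one_le_pow₀ (by linarith [Real.pi_gt_three])
  have hK1 : 1 ≤ P * C₁ := one_le_mul_of_one_le_of_one_le hP1 hC₁
  set G₀ : ℝ := 2 ^ M * (Bχ * (C₃ * (P * C₁))) with hG₀
  have hG₀0 : 0 ≤ G₀ := by positivity
  set C : ℝ := 4 * (P * C₁) + C₁ + C₂ + (C₃ + Bφ + 1) + G₀ with hCdef
  have hC1 : 1 ≤ C := by rw [hCdef]; linarith
  refine ⟨C, hC1, fun X hX jj hjj Ω t q hbt a ha hsz hCXa => ?_⟩
  have hX1 : 1 ≤ X := hC1.trans hX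
  have hX0 : 0 < X := by linarith
  have hXa : 0 ≤ X * a := by positivity
  have hC4 : 4 * (P * C₁) ≤ C := by rw [hCdef]; linarith
  have hCC1 : C₁ ≤ C := by rw [hCdef]; linarith
  have hCC2 : C₂ ≤ C := by rw [hCdef]; linarith
  have hCC3 : C₃ + Bφ + 1 ≤ C := by rw [hCdef]; linarith
  have hCG0 : G₀ ≤ C := by rw [hCdef]; linarith
  have hΩc : Ω ⊆ core n := hbt.sub.trans bal_core
  -- the solutions
  have h1 : ∀ i, ∃ (c₀ c : Ix n → ℂ) (u₀ u : V n → ℂ),
      SolQ (zs 1 i (xg jj X i)) (th0 i) (fun _ => 1) q₀ c₀ u₀ ∧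
      SolQ (zs 1 i (xg jj X i)) (th0 i) t q c u ∧
      nm M c₀ ≤ C₁ / X ∧ nm M (fun k => c k - c₀ k) ≤ C₁ * X * a := by
    intro i
    have hx0 : xg jj X i i = 0 := by
      unfold xg
      exact Pi.single_eq_of_ne (hjj i).symm _
    have hn := nr_xg jj hX0 i
    obtain ⟨c₀, c, u₀, u, s₀, s, e1, -, e3, -⟩ := hcg i 1 (xg jj X i) (Or.inl rfl) hx0
      (by rw [hn]; exact hCC1.trans hX) t q₀ q hbt.sm hb.sq hbt.sq
      (fun x hx => hbt.off x fun h => hx (hΩc h))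
      (fun x hx => hq0 x fun h => hx (bal_core h))
      (fun x hx => (hBA.2.2.1 Ω φ q₀ t q hbt).2.1 x fun h => hx (bal_core h))
      (fun l hl x => hB l hl x) a ha hsz
      (by
        rw [hn]
        calc C₁ * X * a = C₁ * (X * a) := by ring
          _ ≤ C * (X * a) := mul_le_mul_of_nonneg_right hCC1 hXa
          _ = C * X * a := by ring
          _ ≤ 1 := hCXa)
    rw [hn] at e1 e3
    exact ⟨c₀, c, u₀, u, s₀, s, e1, e3⟩
  choose c₀ c u₀ u s₀ s e1 e3 using h1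
  have hrd : ∀ i, RD (fun k => c i k - c₀ i k) := fun i m =>
    Summable.of_nonneg_of_le (fun k => mul_nonneg (pow_nonneg (G.wt_nonneg k) m) (norm_nonneg _))
      (fun k => by
        rw [← mul_add]
        exact mul_le_mul_of_nonneg_left (norm_sub_le _ _) (pow_nonneg (G.wt_nonneg k) m))
      (((s i).rc m).add ((s₀ i).rc m))
  set E₀ : Fin n → V n → ℂ := fun i => Es (th0 i) (c₀ i) with hE₀
  set v : Fin n → V n → ℂ := fun i => Es (th0 i) (fun k => c i k - c₀ i k) with hv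
  have sE : ∀ i, ContDiff ℝ ∞ (E₀ i) := fun i => smooth_Est (s₀ i).rc
  have sv : ∀ i, ContDiff ℝ ∞ (v i) := fun i => smooth_Est (hrd i)
  have hEv : ∀ i x, Es (th0 i) (c i) x = E₀ i x + v i x := fun i x => by
    simp only [hE₀, hv]
    rw [G.Es_sub (s i).rc (s₀ i).rc]
    ring
  have bE : ∀ i, Cl M (P * (C₁ / X)) (E₀ i) := fun i => cl_Est (th0_abs i) (s₀ i).rc (e1 i)
  have bv : ∀ i, Cl M (P * (C₁ * X * a)) (v i) := fun i => cl_Est (th0_abs i) (hrd i) (e3 i)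
  have q1 : P * (C₁ / X) ≤ 1 / 4 := by
    rw [← mul_div_assoc, div_le_iff₀ hX0]
    linarith
  have q2 : P * (C₁ * X * a) ≤ 1 / 4 := by
    have : 4 * (P * C₁) * (X * a) ≤ C * (X * a) := mul_le_mul_of_nonneg_right hC4 hXa
    nlinarith
  have nE : ∀ i x, ‖E₀ i x‖ ≤ 1 / 4 := fun i x => by
    have := bE i 0 (Nat.zero_le _) x
    rw [norm_iteratedFDeriv_zero] at this
    exact this.trans q1
  have nv : ∀ i x, ‖v i x‖ ≤ 1 / 4 := fun i x => by
    have := bv i 0 (Nat.zero_le _) x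
    rw [norm_iteratedFDeriv_zero] at this
    exact this.trans q2
  have t0 : τ 0 = 0 := by
    rw [hτ1 0 (by simp; norm_num)]
    simp
  have hone : ∀ y : ℂ, ‖y‖ ≤ 3 / 4 → Real.exp (τ y) = ‖1 + y‖ := fun y hy => by
    rw [hτ1 y hy, Real.exp_log]
    refine norm_pos_iff.2 fun h => ?_
    have : y = -1 := by linear_combination h
    rw [this, norm_neg, norm_one] at hy
    norm_num at hy
  -- bounds of the logarithms
  have r1 : ∀ i, Cl M (C₃ * (P * (C₁ / X))) (fun x => τ (E₀ i x)) := fun i => by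
    have := hd n ℝ τ (fun _ => 0) (E₀ i) hτ contDiff_const (sE i)
      (fun j _ hj2 x => hτb j hj2 x)
      (fun j hj1 _ x => by
        rw [iteratedFDeriv_const_of_ne (by omega)]
        simp) _ (by linarith) (bE i)
    simpa [t0] using this
  have r2 : ∀ i, Cl M (C₃ * (P * (C₁ * X * a))) (fun x => τ (E₀ i x + v i x) - τ (E₀ i x)) :=
    fun i => hd n ℝ τ (E₀ i) (v i) hτ (sE i) (sv i)
      (fun j _ hj2 x => hτb j hj2 x)
      (fun j _ hj2 x => (bE i j hj2 x).trans (by linarith)) _ (by linarith) (bv i)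
  have sτ : ∀ i, ContDiff ℝ ∞ (fun x => τ (E₀ i x)) := fun i => hτ.comp (sE i)
  have sτ2 : ∀ i, ContDiff ℝ ∞ (fun x => τ (E₀ i x + v i x)) := fun i =>
    hτ.comp ((sE i).add (sv i))
  set κ : ℝ := (Real.pi * X)⁻¹ with hκ
  have hκ0 : 0 ≤ κ := by rw [hκ]; positivity
  have hκX : κ ≤ 1 / X := by
    rw [hκ, ← one_div]
    refine one_div_le_one_div_of_le hX0 ?_
    nlinarith [Real.pi_gt_three]
  have hκX1 : κ * X ≤ 1 := by
    calc κ * X ≤ 1 / X * X := mul_le_mul_of_nonneg_right hκX hX0.le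
      _ = 1 := by field_simp
  have hπκ : Real.pi * X * κ = 1 := by
    rw [hκ]
    have : Real.pi * X ≠ 0 := by positivity
    field_simp
  set w₁ : V n → V n := fun x i => κ * (τ (E₀ i x) - Real.log (φ x)) with hw₁
  set d : V n → V n := fun x i => κ * (χ x * (τ (E₀ i x + v i x) - τ (E₀ i x))) with hdd
  have sw₁ : ContDiff ℝ ∞ w₁ := contDiff_pi.2 fun i => contDiff_const.mul ((sτ i).sub hL)
  have sd : ContDiff ℝ ∞ d := contDiff_pi.2 fun i =>
    contDiff_const.mul (hχ.mul ((sτ2 i).sub (sτ i)))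
  have bw₁ : Cl M ((C₃ + Bφ) / X) w₁ := by
    refine cl_pi (by positivity) sw₁ fun i => ?_
    refine cl_le (cl_smul ((sτ i).sub hL) (cl_sub (sτ i) hL (r1 i) hBφ) hκ0) ?_
    have h2 : C₃ * (P * (C₁ / X)) ≤ C₃ := by
      calc C₃ * (P * (C₁ / X)) ≤ C₃ * 1 := mul_le_mul_of_nonneg_left (by linarith) hC₃.le
        _ = C₃ := mul_one _
    calc κ * (C₃ * (P * (C₁ / X)) + Bφ) ≤ 1 / X * (C₃ + Bφ) :=
          mul_le_mul hκX (by linarith) (by positivity) (by positivity)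
      _ = (C₃ + Bφ) / X := by ring
  have bd : Cl M (G₀ * a) d := by
    refine cl_pi (by positivity) sd fun i => ?_
    refine cl_le (cl_smul (hχ.mul ((sτ2 i).sub (sτ i)))
      (cl_mul hχ ((sτ2 i).sub (sτ i)) hBχ (r2 i)) hκ0) ?_
    calc κ * (2 ^ M * (Bχ * (C₃ * (P * (C₁ * X * a))))) = (κ * X) * (G₀ * a) := by
          rw [hG₀]; ring
      _ ≤ 1 * (G₀ * a) := mul_le_mul_of_nonneg_right hκX1 (by positivity)
      _ = G₀ * a := one_mul _
  have hGa : G₀ * a ≤ 1 / X := by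
    rw [le_div_iff₀ hX0]
    calc G₀ * a * X = G₀ * (X * a) := by ring
      _ ≤ C * (X * a) := mul_le_mul_of_nonneg_right hCG0 hXa
      _ = C * X * a := by ring
      _ ≤ 1 := hCXa
  -- values
  have vu₀ : ∀ i x, ‖u₀ i x‖ = Real.exp (Real.pi * X * x i) * Real.exp (τ (E₀ i x)) := by
    intro i x
    rw [(s₀ i).val x, norm_u hX0 x rfl, hone _ ((nE i x).trans (by norm_num))]
  have vu : ∀ i x, ‖u i x‖ = Real.exp (Real.pi * X * x i) * Real.exp (τ (E₀ i x + v i x)) := by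
    intro i x
    rw [(s i).val x, norm_u hX0 x rfl, hEv i x, hone _ ?_]
    calc ‖E₀ i x + v i x‖ ≤ ‖E₀ i x‖ + ‖v i x‖ := norm_add_le _ _
      _ ≤ 1 / 4 + 1 / 4 := add_le_add (nE i x) (nv i x)
      _ ≤ 3 / 4 := by norm_num
  have hoff : ∀ i, ∀ x ∈ cube n, x ∉ Ω → u i x = u₀ i x := by
    intro i
    have hx0 : xg jj X i i = 0 := by
      unfold xg
      exact Pi.single_eq_of_ne (hjj i).symm _
    exact hof i 1 (xg jj X i) (Or.inl rfl) hx0
      (by rw [nr_xg jj hX0 i]; exact hCC2.trans hX) Ω φ q₀ t q hbt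
      (fun l hl x => hB l (by omega) x) _ _ _ _ (s₀ i) (s i)
  have hdiff : ∀ i, ∀ x ∈ cube n, x ∉ Ω → τ (E₀ i x + v i x) - τ (E₀ i x) = 0 := by
    intro i x hx hxΩ
    have h := congrArg norm (hoff i x hx hxΩ)
    rw [vu, vu₀] at h
    have h2 := mul_left_cancel₀ (Real.exp_pos _).ne' h
    rw [Real.exp_injective h2, sub_self]
  have hχd : ∀ i, ∀ x ∈ cube n, χ x * (τ (E₀ i x + v i x) - τ (E₀ i x))
      = τ (E₀ i x + v i x) - τ (E₀ i x) := by
    intro i x hx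
    by_cases hxΩ : x ∈ Ω
    · rw [hχ1 x (hΩc hxΩ), one_mul]
    · rw [hdiff i x hx hxΩ, mul_zero]
  have hd0 : ∀ x ∉ Ω, d x = 0 := by
    intro x hxΩ
    funext i
    simp only [hdd, Pi.zero_apply]
    by_cases hx : x ∈ cube n
    · rw [hdiff i x hx hxΩ, mul_zero, mul_zero]
    · rw [hχ0 x hx, zero_mul, mul_zero]
  refine ⟨c₀, c, u₀, u, w₁, fun x => w₁ x + d x, s₀, s, hoff, sw₁, sw₁.add sd, ?_, ?_, ?_, ?_, ?_,
    ?_⟩
  · intro x hx
    simp only [hd0 x hx, add_zero]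
  · refine cl_le bw₁ ?_
    exact div_le_div_of_nonneg_right (by linarith) hX0.le
  · refine cl_le (cl_add sw₁ sd bw₁ bd) ?_
    calc (C₃ + Bφ) / X + G₀ * a ≤ (C₃ + Bφ) / X + 1 / X := by linarith
      _ = (C₃ + Bφ + 1) / X := by ring
      _ ≤ C / X := div_le_div_of_nonneg_right hCC3 hX0.le
  · simp only [add_sub_cancel_left]
    exact cl_le bd (mul_le_mul_of_nonneg_right hCG0 ha)
  · intro i x
    have h2 : Real.pi * X * (x i + w₁ x i) =
        Real.pi * X * x i + τ (E₀ i x) - Real.log (φ x) := by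
      simp only [hw₁]
      linear_combination (τ (E₀ i x) - Real.log (φ x)) * hπκ
    rw [h2, vu₀, Real.exp_sub, Real.exp_add, Real.exp_log (hφ.2 x)]
    have := (hφ.2 x).ne'
    field_simp
  · intro i x hx
    have h2 : Real.pi * X * (x i + (w₁ x + d x) i) =
        Real.pi * X * x i + τ (E₀ i x + v i x) - Real.log (φ x) := by
      simp only [hw₁, hdd, Pi.add_apply]
      rw [hχd i x hx]
      linear_combination (τ (E₀ i x + v i x) - Real.log (φ x)) * hπκ
    rw [h2, vu, Real.exp_sub, Real.exp_add, Real.exp_log (hφ.2 x)]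
    have := (hφ.2 x).ne'
    field_simp

end Vale.Agent.P088.H397.GW
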