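import Vale.Agent.P088.H72.B.DefsE

/-!
# P088, stage 2, row INFE: contact of infinite order at the boundary
-/

open MeasureTheory Set
open scoped ContDiff Matrix

noncomputable section

namespace Vale.Agent.P088.H397

open Vale.Agent.P088.LR Vale.Agent.P088.LR.B Vale.Agent.P088.H639

variable {n : ℕ}

/-- Partial derivatives of smooth functions are continuous. -/
theorem cont_pd {f : V n → ℝ} (hf : ContDiff ℝ ∞ f) (j : Fin n) : Continuous (pd j f) := by
  have h : Continuous (fderiv ℝ f) := hf.continuous_fderiv (by simp)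
  exact h.clm_apply continuous_const

/-- Two continuous functions equal where `ρ ≠ 0`, `|ρ| < r` are equal where `ρ = 0`. -/
theorem eq_of_dense {ρ : V n → ℝ} (hd : Dense {x | ρ x ≠ 0}) (hρ : Continuous ρ) {r : ℝ}
    (_hr : 0 < r) {F : V n → ℝ} (hF : Continuous F) (h : ∀ x, ρ x ≠ 0 → |ρ x| < r → F x = 0) {x : V n}
    (hx : |ρ x| < r) : F x = 0 := by
  have hU : IsOpen {x | |ρ x| < r} := isOpen_lt hρ.abs continuous_const
  have h1 : x ∈ closure ({x | |ρ x| < r} ∩ {x | ρ x ≠ 0}) := hd.open_subset_closure_inter hU hx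
  have h2 : IsClosed {x | F x = 0} := isClosed_eq hF continuous_const
  exact closure_minimal (fun y hy => h y hy.2 hy.1) h2 h1

/-- The normal component of the leading coefficient vanishes at the boundary. -/
theorem normal {ρ : V n → ℝ} (hρ : ContDiff ℝ ∞ ρ) (hd : Dense {x | ρ x ≠ 0}) {t : MF n} {m : ℕ}
    {b : Fin n → Fin n → V n → ℝ} (hb : ∀ i j, ContDiff ℝ ∞ (b i j))
    (he : ∀ x i j, t x i j - dl i j = ρ x ^ m * b i j x) (a : Fin n)
    (h0 : ∀ x, ρ x = 0 → ∑ j, (t x a j - dl a j) * pd j ρ x = 0)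
    (h1 : ∃ r > 0, ∃ E : V n → ℝ, ContDiff ℝ ∞ E ∧ ∀ x, |ρ x| < r →
      ∑ j, pd j (fun y => t y a j) x = ρ x ^ m * E x) (x : V n) (hx : ρ x = 0) :
    ∑ j, b a j x * pd j ρ x = 0 := by
  rcases Nat.eq_zero_or_pos m with rfl | hm
  · have := h0 x hx
    simpa [he] using this
  obtain ⟨r, hr, E, hE, hdiv⟩ := h1
  have hpd : ∀ j y, pd j (fun y => t y a j) y =
      m * ρ y ^ (m - 1) * pd j ρ y * b a j y + ρ y ^ m * pd j (b a j) y := by
    intro j y
    have e : (fun y => t y a j) = fun y => ρ y ^ m * b a j y + dl a j := by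
      ext y
      linarith [he y a j]
    have dρ : HasFDerivAt ρ (fderiv ℝ ρ y) y := (hρ.differentiable (by simp) y).hasFDerivAt
    have db : HasFDerivAt (b a j) (fderiv ℝ (b a j) y) y :=
      ((hb a j).differentiable (by simp) y).hasFDerivAt
    have d1 : HasFDerivAt (fun y => ρ y ^ m * b a j y + dl a j)
        (ρ y ^ m • fderiv ℝ (b a j) y + b a j y • (m • ρ y ^ (m - 1)) • fderiv ℝ ρ y) y :=
      ((dρ.pow m).mul db).add_const (dl a j)
    unfold pd
    rw [e, d1.fderiv]
    simp
    ring
  set F : V n → ℝ := fun y => m * ∑ j, b a j y * pd j ρ y +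
    ρ y * ((∑ j, pd j (b a j) y) - E y) with hFdef
  have hF : Continuous F := by
    have c1 : ∀ j, Continuous (b a j) := fun j => (hb a j).continuous
    have c2 : ∀ j, Continuous (pd j ρ) := fun j => cont_pd hρ j
    have c3 : ∀ j, Continuous (pd j (b a j)) := fun j => cont_pd (hb a j) j
    have c4 := hρ.continuous
    have c5 := hE.continuous
    fun_prop
  have hz : F x = 0 := by
    refine eq_of_dense hd hρ.continuous hr hF (fun y hy hyr => ?_) (by simpa [hx] using hr)
    have h2 := hdiv y hyr
    simp only [hpd] at h2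
    have h3 : ρ y ^ (m - 1) * F y = 0 := by
      have h4 : ρ y ^ m = ρ y ^ (m - 1) * ρ y := by
        rw [← pow_succ, Nat.sub_add_cancel hm]
      rw [Finset.sum_add_distrib, ← Finset.mul_sum, h4] at h2
      have h5 : ∑ j, (m : ℝ) * ρ y ^ (m - 1) * pd j ρ y * b a j y =
          m * ρ y ^ (m - 1) * ∑ j, b a j y * pd j ρ y := by
        rw [Finset.mul_sum]
        exact Finset.sum_congr rfl fun j _ => by ring
      rw [h5] at h2
      rw [hFdef]
      linear_combination h2
    rcases mul_eq_zero.1 h3 with h | h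
    · exact absurd h (pow_ne_zero _ hy)
    · exact h
  have hm' : (m : ℝ) ≠ 0 := by exact_mod_cast hm.ne'
  have : (m : ℝ) * ∑ j, b a j x * pd j ρ x = 0 := by
    simpa [hFdef, hx] using hz
  exact (mul_eq_zero.1 this).resolve_left hm'

/-- Row INFE. -/
theorem infe (hhad : RowHAD) (hbde : RowBDE) (htopo : RowTOPO) : RowINFE := by
  intro n hn
  obtain ⟨a₀, ha₀, hB⟩ := hbde hn
  refine ⟨a₀, ha₀, fun ρ D t ht hpos hSE hsm hnor hdiv => ?_⟩
  have hd : Dense {x | ρ x ≠ 0} := (htopo ρ D).2.2.2.2.2
  intro m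
  induction m with
  | zero => exact ⟨fun i j x => t x i j - dl i j, fun i j => (ht i j).sub contDiff_const,
      fun x i j => by simp⟩
  | succ m ih =>
    obtain ⟨b, hb, he⟩ := ih
    have hsym : ∀ i j x, b i j x = b j i x := by
      intro i j x
      have ht' : ∀ y, t y i j = t y j i := fun y => by
        have := (hpos y).1.apply i j
        simpa using this.symm
      have hdl : dl i j = dl j i := by
        simp only [dl, Matrix.one_apply, eq_comm]
      have : b i j x - b j i x = 0 := by
        refine eq_of_dense (F := fun y => b i j y - b j i y) hd D.sm.continuous (r := |ρ x| + 1)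
          (by positivity) ((hb i j).continuous.sub (hb j i).continuous) (fun y hy _ => ?_)
          (by linarith)
        have h1 := he y i j
        have h2 := he y j i
        rw [ht' y, hdl] at h1
        have h3 : ρ y ^ m * (b i j y - b j i y) = 0 := by rw [mul_sub, ← h1, ← h2, sub_self]
        exact (mul_eq_zero.1 h3).resolve_left (pow_ne_zero m hy)
      linarith
    have hz := hB ρ D t ht hpos hSE hsm m b hb hsym he (fun x hx i =>
      normal D.sm hd hb he i (hnor i) (hdiv i m) x hx)
    have hg := fun i j => hhad ρ D.sm D.nz (b i j) (hb i j) (fun x hx => hz x hx i j)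
    choose g hg1 hg2 using hg
    exact ⟨g, hg1, fun x i j => by rw [he x i j, hg2 i j x, pow_succ, mul_assoc]⟩

end Vale.Agent.P088.H397
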