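import Vale.Agent.P088.H397.BInf

/-!
# P088, stage 2 over a conformally flat base: contact of infinite order at the boundary
-/

open MeasureTheory Set
open scoped ContDiff Matrix

noncomputable section

namespace Vale.Agent.P088.H397

open Vale.Agent.P088.LR Vale.Agent.P088.LR.B Vale.Agent.P088.H639

variable {n : ℕ}

/-- If a field `ρ ^ m c` has divergence `ρ ^ m E` near the boundary and `0 < m`, then
`c` is tangential on the boundary. -/
theorem normal0 {ρ : V n → ℝ} (hρ : ContDiff ℝ ∞ ρ) (hd : Dense {x | ρ x ≠ 0}) {m : ℕ}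
    (hm : 0 < m) {T c : Fin n → V n → ℝ} (hc : ∀ j, ContDiff ℝ ∞ (c j))
    (he : ∀ j x, T j x = ρ x ^ m * c j x)
    (h1 : ∃ r > 0, ∃ E : V n → ℝ, ContDiff ℝ ∞ E ∧ ∀ x, |ρ x| < r →
      ∑ j, pd j (T j) x = ρ x ^ m * E x) (x : V n) (hx : ρ x = 0) :
    ∑ j, c j x * pd j ρ x = 0 := by
  obtain ⟨r, hr, E, hE, hdiv⟩ := h1
  have hpd : ∀ j y, pd j (T j) y =
      m * ρ y ^ (m - 1) * pd j ρ y * c j y + ρ y ^ m * pd j (c j) y := by
    intro j y
    have e : T j = fun y => ρ y ^ m * c j y := funext fun y => he j y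
    have dρ : HasFDerivAt ρ (fderiv ℝ ρ y) y := (hρ.differentiable (by simp) y).hasFDerivAt
    have db : HasFDerivAt (c j) (fderiv ℝ (c j) y) y :=
      ((hc j).differentiable (by simp) y).hasFDerivAt
    have d1 : HasFDerivAt (fun y => ρ y ^ m * c j y)
        (ρ y ^ m • fderiv ℝ (c j) y + c j y • (m • ρ y ^ (m - 1)) • fderiv ℝ ρ y) y :=
      ((dρ.pow m).mul db)
    unfold pd
    rw [e, d1.fderiv]
    simp
    ring
  set F : V n → ℝ := fun y => m * ∑ j, c j y * pd j ρ y +
    ρ y * ((∑ j, pd j (c j) y) - E y) with hFdef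
  have hF : Continuous F := by
    have c1 : ∀ j, Continuous (c j) := fun j => (hc j).continuous
    have c2 : ∀ j, Continuous (pd j ρ) := fun j => cont_pd hρ j
    have c3 : ∀ j, Continuous (pd j (c j)) := fun j => cont_pd (hc j) j
    have c4 := hρ.continuous
    have c5 := hE.continuous
    fun_prop
  have hz : F x = 0 := by
    refine eq_of_dense hd hρ.continuous hr hF (fun y hy hyr => ?_) (by simpa [hx] using hr)
    have h2 := hdiv y hyr
    simp only [hpd] at h2
    have h3 : ρ y ^ (m - 1) * F y = 0 := by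
      have h4 : ρ y ^ m = ρ y ^ (m - 1) * ρ y := by
        rw [← pow_succ, Nat.sub_add_cancel hm]
      rw [Finset.sum_add_distrib, ← Finset.mul_sum, h4] at h2
      have h5 : ∑ j, (m : ℝ) * ρ y ^ (m - 1) * pd j ρ y * c j y =
          m * ρ y ^ (m - 1) * ∑ j, c j y * pd j ρ y := by
        rw [Finset.mul_sum]
        exact Finset.sum_congr rfl fun j _ => by ring
      rw [h5] at h2
      rw [hFdef]
      linear_combination h2
    rcases mul_eq_zero.1 h3 with h | h
    · exact absurd h (pow_ne_zero _ hy)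
    · exact h
  have hm' : (m : ℝ) ≠ 0 := by exact_mod_cast hm.ne'
  have : (m : ℝ) * ∑ j, c j x * pd j ρ x = 0 := by
    simpa [hFdef, hx] using hz
  exact (mul_eq_zero.1 this).resolve_left hm'

/-- The normal component of the leading coefficient vanishes at the boundary: the divergence is
taken against `n` fields `G a` (gradients of coordinates), linearly independent at the boundary. -/
theorem normalX {ρ σ : V n → ℝ} (hρ : ContDiff ℝ ∞ ρ) (hd : Dense {x | ρ x ≠ 0}) {t : MF n} {m : ℕ}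
    {b : Fin n → Fin n → V n → ℝ} (hb : ∀ i j, ContDiff ℝ ∞ (b i j))
    (hs : ∀ i j x, b i j x = b j i x)
    {G : Fin n → Fin n → V n → ℝ} (hG : ∀ a i, ContDiff ℝ ∞ (G a i))
    (hinv : ∀ x, ρ x = 0 → ∀ v : Fin n → ℝ, (∀ a, ∑ i, G a i x * v i = 0) → ∀ i, v i = 0)
    (he : ∀ x i j, t x i j - σ x * dl i j = ρ x ^ m * b i j x)
    (h0 : ∀ i x, ρ x = 0 → ∑ j, (t x i j - σ x * dl i j) * pd j ρ x = 0)
    (h1 : ∀ a, ∃ r > 0, ∃ E : V n → ℝ, ContDiff ℝ ∞ E ∧ ∀ x, |ρ x| < r →
      ∑ j, pd j (fun y => ∑ i, (t y j i - σ y * dl j i) * G a i y) x = ρ x ^ m * E x)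
    (x : V n) (hx : ρ x = 0) (i : Fin n) :
    ∑ j, b i j x * pd j ρ x = 0 := by
  rcases Nat.eq_zero_or_pos m with rfl | hm
  · have := h0 i x hx
    simpa [he] using this
  refine hinv x hx (fun i => ∑ j, b i j x * pd j ρ x) (fun a => ?_) i
  have h := normal0 hρ hd hm (T := fun j y => ∑ i, (t y j i - σ y * dl j i) * G a i y)
    (c := fun j y => ∑ i, b j i y * G a i y)
    (fun j => ContDiff.sum fun i _ => (hb j i).mul (hG a i))
    (fun j y => by
      rw [Finset.mul_sum]
      exact Finset.sum_congr rfl fun i _ => by rw [he y j i]; ring) (h1 a) x hx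
  rw [← h]
  simp only [Finset.mul_sum, Finset.sum_mul]
  rw [Finset.sum_comm]
  refine Finset.sum_congr rfl fun j _ => Finset.sum_congr rfl fun i _ => ?_
  rw [hs i j x]
  ring

/-- Contact of infinite order, abstract form: the boundary step `step` (row BDEX) is a hypothesis
about `ρ ^ m b`. -/
theorem infX (hhad : RowHAD) (htopo : RowTOPO) {ρ σ : V n → ℝ} (D : Dom ρ)
    (hσ : ContDiff ℝ ∞ σ) {t : MF n} (ht : SmM t) (hpos : ∀ x i j, t x i j = t x j i)
    {G : Fin n → Fin n → V n → ℝ} (hG : ∀ a i, ContDiff ℝ ∞ (G a i))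
    (hinv : ∀ x, ρ x = 0 → ∀ v : Fin n → ℝ, (∀ a, ∑ i, G a i x * v i = 0) → ∀ i, v i = 0)
    (hnor : ∀ i x, ρ x = 0 → ∑ j, (t x i j - σ x * dl i j) * pd j ρ x = 0)
    (hdiv : ∀ a (m : ℕ), ∃ r > 0, ∃ E : V n → ℝ, ContDiff ℝ ∞ E ∧ ∀ x, |ρ x| < r →
      ∑ j, pd j (fun y => ∑ i, (t y j i - σ y * dl j i) * G a i y) x = ρ x ^ m * E x)
    (step : ∀ (m : ℕ) (b : Fin n → Fin n → V n → ℝ), (∀ i j, ContDiff ℝ ∞ (b i j)) →
      (∀ i j x, b i j x = b j i x) → (∀ x i j, t x i j - σ x * dl i j = ρ x ^ m * b i j x) →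
      (∀ x, ρ x = 0 → ∀ i, ∑ j, b i j x * pd j ρ x = 0) → ∀ x, ρ x = 0 → ∀ i j, b i j x = 0) :
    ∀ m : ℕ, ∃ b : Fin n → Fin n → V n → ℝ, (∀ i j, ContDiff ℝ ∞ (b i j)) ∧
      ∀ x i j, t x i j - σ x * dl i j = ρ x ^ m * b i j x := by
  have hd : Dense {x | ρ x ≠ 0} := (htopo ρ D).2.2.2.2.2
  intro m
  induction m with
  | zero => exact ⟨fun i j x => t x i j - σ x * dl i j,
      fun i j => (ht i j).sub (hσ.mul contDiff_const), fun x i j => by simp⟩
  | succ m ih =>
    obtain ⟨b, hb, he⟩ := ih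
    have hsym : ∀ i j x, b i j x = b j i x := by
      intro i j x
      have hdl : dl i j = dl j i := by
        simp only [dl, Matrix.one_apply, eq_comm]
      have : b i j x - b j i x = 0 := by
        refine eq_of_dense (F := fun y => b i j y - b j i y) hd D.sm.continuous (r := |ρ x| + 1)
          (by positivity) ((hb i j).continuous.sub (hb j i).continuous) (fun y hy _ => ?_)
          (by linarith)
        have h1 := he y i j
        have h2 := he y j i
        rw [hpos y, hdl] at h1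
        have h3 : ρ y ^ m * (b i j y - b j i y) = 0 := by rw [mul_sub, ← h1, ← h2, sub_self]
        exact (mul_eq_zero.1 h3).resolve_left (pow_ne_zero m hy)
      linarith
    have hz := step m b hb hsym he (fun x hx i =>
      normalX D.sm hd hb hsym hG hinv he hnor (fun a => hdiv a m) x hx i)
    have hg := fun i j => hhad ρ D.sm D.nz (b i j) (hb i j) (fun x hx => hz x hx i j)
    choose g hg1 hg2 using hg
    exact ⟨g, hg1, fun x i j => by rw [he x i j, hg2 i j x, pow_succ, mul_assoc]⟩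

end Vale.Agent.P088.H397
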