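import Vale.Agent.P088.H442.C.Defs
import Vale.Agent.P088.H53.D
import Vale.Agent.P088.H501.A12

/-!
# P088, theorem C, row C_GW, part 1: calculus
-/

open MeasureTheory Set
open scoped ContDiff Matrix

noncomputable section

namespace Vale.Agent.P088.H397.GW

open Vale.Agent.P088.LR Vale.Agent.P088.LR.CF Vale.Agent.P088.LR.CC

variable {n : ℕ}

section gen

variable {E : Type} [NormedAddCommGroup E] [NormedSpace ℝ E]

theorem cl_le {F : Type*} [NormedAddCommGroup F] [NormedSpace ℝ F] {k : ℕ} {a b : ℝ}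
    {f : V n → F} (h : Cl k a f) (hab : a ≤ b) : Cl k b f := fun l hl x => (h l hl x).trans hab

theorem cl_nonneg {F : Type*} [NormedAddCommGroup F] [NormedSpace ℝ F] {k : ℕ} {a : ℝ}
    {f : V n → F} (h : Cl k a f) : 0 ≤ a := (norm_nonneg _).trans (h 0 (Nat.zero_le _) 0)

theorem cl_succ {F : Type*} [NormedAddCommGroup F] [NormedSpace ℝ F] {k : ℕ} {B : ℝ}
    {f : V n → F} (h0 : Cl 0 B f) (h1 : Cl k B (fderiv ℝ f)) : Cl (k + 1) B f := by
  intro l hl x
  rcases Nat.eq_zero_or_pos l with h | h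
  · subst h; exact h0 0 le_rfl x
  · obtain ⟨m, rfl⟩ : ∃ m, l = m + 1 := ⟨l - 1, by omega⟩
    rw [← norm_iteratedFDeriv_fderiv]
    exact h1 m (by omega) x

theorem cl_comp {F : Type*} [NormedAddCommGroup F] [NormedSpace ℝ F] {k : ℕ} {a b : ℝ}
    {f : V n → (E →L[ℝ] F)} {g : V n → (V n →L[ℝ] E)} (hf : ContDiff ℝ ∞ f)
    (hg : ContDiff ℝ ∞ g) (h1 : Cl k a f) (h2 : Cl k b g) :
    Cl k (2 ^ k * (a * b)) (fun x => (f x).comp (g x)) := by
  have ha : 0 ≤ a := (norm_nonneg _).trans (h1 0 (Nat.zero_le _) 0)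
  have hb : 0 ≤ b := (norm_nonneg _).trans (h2 0 (Nat.zero_le _) 0)
  intro l hl x
  have e := (ContinuousLinearMap.compL ℝ (V n) E F).norm_iteratedFDeriv_le_of_bilinear_of_le_one
    (N := ∞) hf hg x (n := l) (by exact_mod_cast le_top)
    (ContinuousLinearMap.norm_compL_le ℝ (V n) E F)
  refine e.trans ?_
  calc ∑ i ∈ Finset.range (l + 1), (l.choose i : ℝ) * ‖iteratedFDeriv ℝ i f x‖
        * ‖iteratedFDeriv ℝ (l - i) g x‖
      ≤ ∑ i ∈ Finset.range (l + 1), (l.choose i : ℝ) * (a * b) := by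
        refine Finset.sum_le_sum fun i hi => ?_
        rw [Finset.mem_range] at hi
        have h3 := h1 i (by omega) x
        have h4 := h2 (l - i) (by omega) x
        rw [mul_assoc]
        gcongr
    _ = 2 ^ l * (a * b) := by
        rw [← Finset.sum_mul]
        congr 1
        exact_mod_cast Nat.sum_range_choose l
    _ ≤ 2 ^ k * (a * b) := by
        have : (2 : ℝ) ^ l ≤ 2 ^ k := pow_le_pow_right₀ (by norm_num) hl
        gcongr

theorem cl_add {F : Type*} [NormedAddCommGroup F] [NormedSpace ℝ F] {k : ℕ} {a b : ℝ}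
    {f g : V n → F} (hf : ContDiff ℝ ∞ f) (hg : ContDiff ℝ ∞ g)
    (h1 : Cl k a f) (h2 : Cl k b g) : Cl k (a + b) (fun x => f x + g x) := by
  intro l hl x
  have : iteratedFDeriv ℝ l (fun x => f x + g x) x =
      iteratedFDeriv ℝ l f x + iteratedFDeriv ℝ l g x :=
    iteratedFDeriv_add_apply (hf.of_le (by exact_mod_cast le_top)).contDiffAt
      (hg.of_le (by exact_mod_cast le_top)).contDiffAt
  rw [this]
  exact (norm_add_le _ _).trans (add_le_add (h1 l hl x) (h2 l hl x))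

/-- The difference estimate (607), values of `A`, `v` in any normed space. -/
theorem diffE (k : ℕ) : ∀ D B : ℝ, 1 ≤ D → 0 ≤ B → ∃ C > 0, ∀ (n : ℕ) (F : Type)
    [NormedAddCommGroup F] [NormedSpace ℝ F] (τ : E → F) (A v : V n → E),
    ContDiff ℝ ∞ τ → ContDiff ℝ ∞ A → ContDiff ℝ ∞ v →
    (∀ i, 1 ≤ i → i ≤ k + 1 → ∀ x, ‖iteratedFDeriv ℝ i τ x‖ ≤ B) →
    (∀ i, 1 ≤ i → i ≤ k → ∀ x, ‖iteratedFDeriv ℝ i A x‖ ≤ D) →
    ∀ δ, δ ≤ 1 → Cl k δ v → Cl k (C * δ) (fun x => τ (A x + v x) - τ (A x)) := by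
  induction k with
  | zero =>
    intro D B hD hB
    refine ⟨B + 1, by positivity, fun n F _ _ τ A v hτ hA hv hτb hAb δ hδ1 hvc l hl x => ?_⟩
    have hl0 : l = 0 := by omega
    subst hl0
    rw [norm_iteratedFDeriv_zero]
    have hδ0 : 0 ≤ δ := (norm_nonneg _).trans (hvc 0 le_rfl x)
    have h1 : ‖τ (A x + v x) - τ (A x)‖ ≤ B * ‖A x + v x - A x‖ :=
      Convex.norm_image_sub_le_of_norm_fderiv_le (s := univ)
        (fun y _ => (hτ.differentiable (by simp)) y)
        (fun y _ => by rw [← norm_iteratedFDeriv_one]; exact hτb 1 le_rfl le_rfl y)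
        convex_univ (mem_univ _) (mem_univ _)
    have h2 : ‖v x‖ ≤ δ := by
      have := hvc 0 le_rfl x
      rwa [norm_iteratedFDeriv_zero] at this
    rw [add_sub_cancel_left] at h1
    calc ‖τ (A x + v x) - τ (A x)‖ ≤ B * ‖v x‖ := h1
      _ ≤ B * δ := by gcongr
      _ ≤ (B + 1) * δ := by gcongr; linarith
  | succ k ih =>
    intro D B hD hB
    obtain ⟨C, hC, hi⟩ := ih D B hD hB
    refine ⟨(B + 1) + (2 ^ k * (C * D) + 2 ^ k * ((k.factorial : ℝ) * B * (D + 1) ^ k)),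
      by positivity, fun n F _ _ τ A v hτ hA hv hτb hAb δ hδ1 hvc => ?_⟩
    have hδ0 : 0 ≤ δ := (norm_nonneg _).trans (hvc 0 (Nat.zero_le _) 0)
    have hτ' : ContDiff ℝ ∞ (fderiv ℝ τ) := hτ.fderiv_right (m := ∞) (by simp)
    have hA' : ContDiff ℝ ∞ (fderiv ℝ A) := hA.fderiv_right (m := ∞) (by simp)
    have hv' : ContDiff ℝ ∞ (fderiv ℝ v) := hv.fderiv_right (m := ∞) (by simp)
    have hAv : ContDiff ℝ ∞ (fun x => A x + v x) := hA.add hv
    -- the derivative
    have hder : fderiv ℝ (fun x => τ (A x + v x) - τ (A x)) = fun x =>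
        (fderiv ℝ τ (A x + v x) - fderiv ℝ τ (A x)).comp (fderiv ℝ A x) +
          (fderiv ℝ τ (A x + v x)).comp (fderiv ℝ v x) := by
      funext x
      have e1 : HasFDerivAt A (fderiv ℝ A x) x := (hA.differentiable (by simp) x).hasFDerivAt
      have e2 : HasFDerivAt v (fderiv ℝ v x) x := (hv.differentiable (by simp) x).hasFDerivAt
      have e3 : HasFDerivAt (fun x => τ (A x + v x))
          ((fderiv ℝ τ (A x + v x)).comp (fderiv ℝ A x + fderiv ℝ v x)) x :=
        HasFDerivAt.comp x (g := τ) (hτ.differentiable (by simp) _).hasFDerivAt (e1.add e2)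
      have e4 : HasFDerivAt (fun x => τ (A x)) ((fderiv ℝ τ (A x)).comp (fderiv ℝ A x)) x :=
        HasFDerivAt.comp x (g := τ) (hτ.differentiable (by simp) _).hasFDerivAt e1
      have e5 : HasFDerivAt (fun x => τ (A x + v x) - τ (A x))
          ((fderiv ℝ τ (A x + v x)).comp (fderiv ℝ A x + fderiv ℝ v x) -
            (fderiv ℝ τ (A x)).comp (fderiv ℝ A x)) x := e3.sub e4
      rw [e5.fderiv]
      ext z
      simp only [ContinuousLinearMap.comp_apply, add_apply, sub_apply, map_add]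
      abel
    -- the pieces
    have p1 : Cl k (C * δ) (fun x => fderiv ℝ τ (A x + v x) - fderiv ℝ τ (A x)) :=
      hi n (E →L[ℝ] F) (fderiv ℝ τ) A v hτ' hA hv
        (fun i hi1 hi2 x => by
          rw [norm_iteratedFDeriv_fderiv]; exact hτb (i + 1) (by omega) (by omega) x)
        (fun i hi1 hi2 x => hAb i hi1 (by omega) x) δ hδ1 (fun l hl x => hvc l (by omega) x)
    have p2 : Cl k D (fderiv ℝ A) := by
      intro l hl x
      rw [norm_iteratedFDeriv_fderiv]
      exact hAb (l + 1) (by omega) (by omega) x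
    have p3 : Cl k δ (fderiv ℝ v) := by
      intro l hl x
      rw [norm_iteratedFDeriv_fderiv]
      exact hvc (l + 1) (by omega) x
    have p4 : Cl k ((k.factorial : ℝ) * B * (D + 1) ^ k) (fun x => fderiv ℝ τ (A x + v x)) := by
      intro l hl x
      have := norm_iteratedFDeriv_comp_le (g := fderiv ℝ τ) (f := fun x => A x + v x) (N := ∞)
        hτ' hAv (n := l) (by exact_mod_cast le_top) x (C := B) (D := D + 1)
        (fun j hj => by
          rw [norm_iteratedFDeriv_fderiv]; exact hτb (j + 1) (by omega) (by omega) _)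
        (fun j hj1 hj2 => by
          have e5 : iteratedFDeriv ℝ j (fun x => A x + v x) x =
              iteratedFDeriv ℝ j A x + iteratedFDeriv ℝ j v x :=
            iteratedFDeriv_add_apply (hA.of_le (by exact_mod_cast le_top)).contDiffAt
              (hv.of_le (by exact_mod_cast le_top)).contDiffAt
          rw [e5]
          calc ‖iteratedFDeriv ℝ j A x + iteratedFDeriv ℝ j v x‖
              ≤ ‖iteratedFDeriv ℝ j A x‖ + ‖iteratedFDeriv ℝ j v x‖ := norm_add_le _ _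
            _ ≤ D + 1 := add_le_add (hAb j hj1 (by omega) x) ((hvc j (by omega) x).trans hδ1)
            _ = (D + 1) ^ 1 := (pow_one _).symm
            _ ≤ (D + 1) ^ j := pow_le_pow_right₀ (by linarith) hj1)
      refine this.trans ?_
      have h2 : (l.factorial : ℝ) ≤ k.factorial := by exact_mod_cast Nat.factorial_le hl
      have h3 : (D + 1) ^ l ≤ (D + 1) ^ k := pow_le_pow_right₀ (by linarith) hl
      gcongr
    have s1 : ContDiff ℝ ∞ (fun x => fderiv ℝ τ (A x + v x)) := hτ'.comp hAv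
    have s2 : ContDiff ℝ ∞ (fun x => fderiv ℝ τ (A x)) := hτ'.comp hA
    have q1 := cl_comp (s1.sub s2) hA' p1 p2
    have q2 := cl_comp s1 hv' p4 p3
    have q3 := cl_add ((s1.sub s2).clm_comp hA') (s1.clm_comp hv') q1 q2
    rw [← hder] at q3
    refine cl_succ ?_ ?_
    · intro l hl x
      have hl0 : l = 0 := by omega
      subst hl0
      rw [norm_iteratedFDeriv_zero]
      have h1 : ‖τ (A x + v x) - τ (A x)‖ ≤ B * ‖A x + v x - A x‖ :=
        Convex.norm_image_sub_le_of_norm_fderiv_le (s := univ)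
          (fun y _ => (hτ.differentiable (by simp)) y)
          (fun y _ => by rw [← norm_iteratedFDeriv_one]; exact hτb 1 le_rfl (by omega) y)
          convex_univ (mem_univ _) (mem_univ _)
      have h2 : ‖v x‖ ≤ δ := by
        have := hvc 0 (Nat.zero_le _) x
        rwa [norm_iteratedFDeriv_zero] at this
      rw [add_sub_cancel_left] at h1
      have h3 : 0 ≤ (2 ^ k * (C * D) + 2 ^ k * ((k.factorial : ℝ) * B * (D + 1) ^ k)) * δ := by
        positivity
      calc ‖τ (A x + v x) - τ (A x)‖ ≤ B * ‖v x‖ := h1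
        _ ≤ B * δ := by gcongr
        _ ≤ ((B + 1) + (2 ^ k * (C * D) + 2 ^ k * ((k.factorial : ℝ) * B * (D + 1) ^ k))) * δ := by
          nlinarith
    · refine cl_le q3 ?_
      have h3 : 0 ≤ (B + 1) * δ := by positivity
      calc 2 ^ k * (C * δ * D) + 2 ^ k * ((k.factorial : ℝ) * B * (D + 1) ^ k * δ)
          = (2 ^ k * (C * D) + 2 ^ k * ((k.factorial : ℝ) * B * (D + 1) ^ k)) * δ := by ring
        _ ≤ ((B + 1) + (2 ^ k * (C * D) + 2 ^ k * ((k.factorial : ℝ) * B * (D + 1) ^ k))) * δ := by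
          linarith

/-- Smooth functions with compact support have bounded derivatives. -/
theorem exists_bd {E F : Type*} [NormedAddCommGroup E] [NormedSpace ℝ E]
    [NormedAddCommGroup F] [NormedSpace ℝ F] (k : ℕ) {f : E → F} (hf : ContDiff ℝ ∞ f)
    (hc : HasCompactSupport f) :
    ∃ B : ℝ, 0 < B ∧ ∀ l ≤ k, ∀ x, ‖iteratedFDeriv ℝ l f x‖ ≤ B := by
  have h : ∀ l : ℕ, ∃ C, ∀ x, ‖iteratedFDeriv ℝ l f x‖ ≤ C := fun l =>
    (hf.continuous_iteratedFDeriv (by exact_mod_cast le_top)).bounded_above_of_compact_support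
      (hc.iteratedFDeriv l)
  choose C hC using h
  refine ⟨1 + ∑ l ∈ Finset.range (k + 1), |C l|, by positivity, fun l hl x => ?_⟩
  calc ‖iteratedFDeriv ℝ l f x‖ ≤ C l := hC l x
    _ ≤ |C l| := le_abs_self _
    _ ≤ ∑ l ∈ Finset.range (k + 1), |C l| :=
      Finset.single_le_sum (f := fun l => |C l|) (fun i _ => abs_nonneg _)
        (Finset.mem_range.mpr (by omega))
    _ ≤ _ := by linarith

/-- `log |1 + y|` cut off. -/
theorem exists_tau (k : ℕ) : ∃ (τ : ℂ → ℝ) (B : ℝ), 0 < B ∧ ContDiff ℝ ∞ τ ∧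
    (∀ i ≤ k, ∀ y, ‖iteratedFDeriv ℝ i τ y‖ ≤ B) ∧
    ∀ y : ℂ, ‖y‖ ≤ 3 / 4 → τ y = Real.log ‖1 + y‖ := by
  let b : ContDiffBump (0 : ℂ) := ⟨3 / 4, 7 / 8, by norm_num, by norm_num⟩
  have hs : ContDiff ℝ ∞ (fun y : ℂ => b y * Real.log ‖1 + y‖) := by
    rw [contDiff_iff_contDiffAt]
    intro y
    rcases lt_or_ge ‖y‖ 1 with hy | hy
    · have h0 : 1 + y ≠ 0 := fun h => by
        have : y = -1 := by linear_combination h
        rw [this, norm_neg, norm_one] at hy
        exact lt_irrefl _ hy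
      have h1 : ContDiffAt ℝ ∞ (fun y : ℂ => ‖1 + y‖) y :=
        (contDiffAt_norm ℝ h0).comp y (contDiffAt_const.add contDiffAt_id)
      exact b.contDiff.contDiffAt.mul (h1.log (norm_ne_zero_iff.2 h0))
    · have h1 : (fun y : ℂ => b y * Real.log ‖1 + y‖) =ᶠ[nhds y] fun _ => 0 := by
        have h2 : {z : ℂ | 7 / 8 < ‖z‖} ∈ nhds y :=
          (isOpen_lt continuous_const continuous_norm).mem_nhds
            (by change (7 / 8 : ℝ) < ‖y‖; linarith)
        filter_upwards [h2] with z hz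
        have h3 : b z = 0 := b.zero_of_le_dist (by
          rw [dist_zero_right]; exact (le_of_lt hz))
        rw [h3, zero_mul]
      exact contDiffAt_const.congr_of_eventuallyEq h1
  have hc : HasCompactSupport (fun y : ℂ => b y * Real.log ‖1 + y‖) :=
    b.hasCompactSupport.mul_right
  obtain ⟨B, hB, h⟩ := exists_bd k hs hc
  refine ⟨_, B, hB, hs, h, fun y hy => ?_⟩
  have h3 : b y = 1 := b.one_of_mem_closedBall (by
    rw [Metric.mem_closedBall, dist_zero_right]; exact hy)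
  simp only [h3, one_mul]

end gen

/-! ## Fourier series with a shift -/

/-- The coefficients of the derivative. -/
def dct (θ : V n) (i : Fin n) (c : Ix n → ℂ) (k : Ix n) : ℂ :=
  2 * Real.pi * Complex.I * ((fr θ k i : ℝ) : ℂ) * c k

lemma norm_dct (θ : V n) (i : Fin n) (c : Ix n → ℂ) (k : Ix n) :
    ‖dct θ i c k‖ = 2 * Real.pi * |fr θ k i| * ‖c k‖ := by
  unfold dct
  rw [norm_mul, norm_mul, norm_mul, norm_mul, Complex.norm_I, Complex.norm_real, Complex.norm_real,
    Real.norm_of_nonneg Real.pi_pos.le, Complex.norm_ofNat, Real.norm_eq_abs]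
  ring

lemma sum_fr_le {θ : V n} (hθ : ∑ j, |θ j| ≤ 1) (k : Ix n) : ∑ i, |fr θ k i| ≤ wt k := by
  have : ∑ i, |fr θ k i| ≤ ∑ i, (|(k i : ℝ)| + |θ i|) :=
    Finset.sum_le_sum fun i _ => abs_add_le _ _
  rw [Finset.sum_add_distrib] at this
  unfold wt
  linarith

lemma fr_le {θ : V n} (hθ : ∑ j, |θ j| ≤ 1) (k : Ix n) (i : Fin n) : |fr θ k i| ≤ wt k :=
  (Finset.single_le_sum (f := fun j => |fr θ k j|) (fun _ _ => abs_nonneg _)
    (Finset.mem_univ i)).trans (sum_fr_le hθ k)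

lemma rd_dct {θ : V n} (hθ : ∑ j, |θ j| ≤ 1) {c : Ix n → ℂ} (hc : RD c) (i : Fin n) :
    RD (dct θ i c) := by
  refine G.rdMono hc (C := 2 * Real.pi) (e := 1) fun k => ?_
  rw [norm_dct, pow_one]
  exact mul_le_mul_of_nonneg_right (mul_le_mul_of_nonneg_left (fr_le hθ k i) (by positivity))
    (norm_nonneg _)

lemma pd_Est {θ : V n} {c : Ix n → ℂ} (hc : RD c) (i : Fin n) :
    pd i (Es θ c) = Es θ (dct θ i c) := by
  funext x
  rw [(H501.rowA1 θ c hc).2 i x]
  rfl

lemma smooth_Est {θ : V n} {c : Ix n → ℂ} (hc : RD c) : ContDiff ℝ ∞ (Es θ c) :=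
  (H501.rowA1 θ c hc).1

lemma sum_nm_dct_le {θ : V n} (hθ : ∑ j, |θ j| ≤ 1) {c : Ix n → ℂ} (hc : RD c) (l : ℕ) :
    ∑ i, nm l (dct θ i c) ≤ 2 * Real.pi * nm (l + 1) c := by
  unfold nm
  rw [← Summable.tsum_finsetSum fun i _ => rd_dct hθ hc i l, ← tsum_mul_left]
  refine (summable_sum fun i _ => rd_dct hθ hc i l).tsum_le_tsum (fun k => ?_)
    ((hc (l + 1)).mul_left _)
  simp_rw [norm_dct]
  rw [← Finset.mul_sum, ← Finset.sum_mul, ← Finset.mul_sum]
  have h1 := sum_fr_le hθ k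
  have h2 := G.wt_nonneg k
  calc wt k ^ l * ((2 * Real.pi * ∑ i, |fr θ k i|) * ‖c k‖)
      = (∑ i, |fr θ k i|) * (wt k ^ l * (2 * Real.pi) * ‖c k‖) := by ring
    _ ≤ wt k * (wt k ^ l * (2 * Real.pi) * ‖c k‖) :=
        mul_le_mul_of_nonneg_right h1 (by positivity)
    _ = 2 * Real.pi * (wt k ^ (l + 1) * ‖c k‖) := by rw [pow_succ]; ring

/-- Derivatives of a Fourier series are bounded by the weighted norms. -/
lemma norm_iter_Est {θ : V n} (hθ : ∑ j, |θ j| ≤ 1) (l : ℕ) : ∀ {c : Ix n → ℂ}, RD c → ∀ x,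
    ‖iteratedFDeriv ℝ l (Es θ c) x‖ ≤ (2 * Real.pi) ^ l * nm l c := by
  induction l with
  | zero =>
    intro c hc x
    rw [norm_iteratedFDeriv_zero, pow_zero, one_mul]
    exact G.norm_Es_le hc θ x
  | succ l ih =>
    intro c hc x
    refine (G.norm_iter_succ_le (smooth_Est hc) l x).trans ?_
    calc ∑ i, ‖iteratedFDeriv ℝ l (pd i (Es θ c)) x‖
        ≤ ∑ i, (2 * Real.pi) ^ l * nm l (dct θ i c) := Finset.sum_le_sum fun i _ => by
          rw [pd_Est hc]; exact ih (rd_dct hθ hc i) x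
      _ = (2 * Real.pi) ^ l * ∑ i, nm l (dct θ i c) := by rw [Finset.mul_sum]
      _ ≤ (2 * Real.pi) ^ l * (2 * Real.pi * nm (l + 1) c) :=
          mul_le_mul_of_nonneg_left (sum_nm_dct_le hθ hc l) (by positivity)
      _ = _ := by rw [pow_succ]; ring

lemma cl_Est {θ : V n} (hθ : ∑ j, |θ j| ≤ 1) {c : Ix n → ℂ} (hc : RD c) {M : ℕ} {b : ℝ}
    (hb : nm M c ≤ b) : Cl M ((2 * Real.pi) ^ M * b) (Es θ c) := by
  intro l hl x
  refine (norm_iter_Est hθ l hc x).trans ?_
  have h1 : (1 : ℝ) ≤ 2 * Real.pi := by linarith [Real.pi_gt_three]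
  have h2 : (2 * Real.pi) ^ l ≤ (2 * Real.pi) ^ M := pow_le_pow_right₀ h1 hl
  exact mul_le_mul h2 ((G.nm_mono c hc hl).trans hb) (G.nm_nonneg _ _) (by positivity)

lemma th0_abs (i : Fin n) : ∑ j, |th0 i j| ≤ 1 := by
  rw [Finset.sum_eq_single i]
  · simp only [th0, Pi.single_eq_same]
    rw [abs_of_pos] <;> norm_num
  · intro j _ hj
    simp [th0, Pi.single_eq_of_ne hj]
  · intro h
    exact absurd (Finset.mem_univ i) h

lemma nr_xg (jj : Fin n → Fin n) {X : ℝ} (hX : 0 < X) (i : Fin n) : nr (xg jj X i) = X := by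
  unfold nr xg
  rw [Finset.sum_eq_single (jj i)]
  · rw [Pi.single_eq_same, neg_sq, Real.sqrt_sq hX.le]
  · intro j _ hj
    rw [Pi.single_eq_of_ne hj]
    norm_num
  · intro h
    exact absurd (Finset.mem_univ _) h

lemma bal_core : bal n ⊆ core n := by
  intro x hx j
  have h1 : (x j - 1 / 2) ^ 2 ≤ 1 / 16 :=
    (Finset.single_le_sum (f := fun j => (x j - 1 / 2) ^ 2) (fun _ _ => sq_nonneg _)
      (Finset.mem_univ j)).trans hx
  have h2 : |x j - 1 / 2| ≤ 1 / 4 := by
    rw [show (1 : ℝ) / 16 = (1 / 4) ^ 2 by norm_num] at h1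
    exact abs_le_of_sq_le_sq h1 (by norm_num)
  rw [abs_le] at h2
  constructor <;> linarith [h2.1, h2.2]

end Vale.Agent.P088.H397.GW
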