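import Vale.Agent.P088.H72.B.DefsE

/-!
# P088: the gradients of `x_a + w_a` are linearly independent when `w` is `C¹`-small
-/

open scoped ContDiff

noncomputable section

namespace Vale.Agent.P088.H397

open Vale.Agent.P088.LR Vale.Agent.P088.LR.B

variable {n : ℕ}

/-- The gradients of the functions `x_a + w_a` are linearly independent if `‖Dw‖ ≤ 1/2`. -/
theorem inj_of_small {w : V n → V n} (hw : ContDiff ℝ ∞ w) (h : Cl 1 (1 / 2) w) (x : V n)
    (v : Fin n → ℝ) (hv : ∀ a, ∑ i, pd i (fun y => y a + w y a) x * v i = 0) : ∀ i, v i = 0 := by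
  have h1 : ‖fderiv ℝ w x‖ ≤ 1 / 2 := by
    have := h 1 le_rfl x
    rwa [← norm_iteratedFDeriv_fderiv, norm_iteratedFDeriv_zero] at this
  have hd : DifferentiableAt ℝ w x := (hw.differentiable (by simp)).differentiableAt
  have hva : ∀ a, v a = -(fderiv ℝ w x v) a := by
    intro a
    have e : ∀ i, pd i (fun y => y a + w y a) x =
        (Pi.single i (1 : ℝ) : Fin n → ℝ) a + (fderiv ℝ w x (Pi.single i 1)) a := by
      intro i
      have d1 : HasFDerivAt (fun y : V n => y a) (ContinuousLinearMap.proj a) x :=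
        (ContinuousLinearMap.proj (R := ℝ) (φ := fun _ : Fin n => ℝ) a).hasFDerivAt
      have d2 : HasFDerivAt (fun y => w y a) ((ContinuousLinearMap.proj a).comp (fderiv ℝ w x)) x :=
        (ContinuousLinearMap.proj (R := ℝ) (φ := fun _ : Fin n => ℝ) a).hasFDerivAt.comp x
          hd.hasFDerivAt
      have d3 : HasFDerivAt (fun y : V n => y a + w y a)
          (ContinuousLinearMap.proj a + (ContinuousLinearMap.proj a).comp (fderiv ℝ w x)) x :=
        d1.add d2
      unfold pd
      rw [d3.fderiv]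
      simp
    have h2 := hv a
    simp only [e, add_mul, Finset.sum_add_distrib] at h2
    have h3 : ∑ i, (Pi.single i (1 : ℝ) : Fin n → ℝ) a * v i = v a := by
      simp [Pi.single_apply]
    have h4 : ∑ i, (fderiv ℝ w x (Pi.single i 1)) a * v i = (fderiv ℝ w x v) a := by
      conv_rhs => rw [show v = ∑ i, v i • (Pi.single i (1 : ℝ) : Fin n → ℝ) from by
        ext j; simp [Finset.sum_apply, Pi.single_apply]]
      rw [map_sum, Finset.sum_apply]
      refine Finset.sum_congr rfl fun i _ => ?_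
      rw [map_smul]
      simp [mul_comm]
    rw [h3, h4] at h2
    linarith
  have h5 : ‖v‖ ≤ 1 / 2 * ‖v‖ := by
    have e : v = -(fderiv ℝ w x v) := funext fun a => by simpa using hva a
    calc ‖v‖ = ‖fderiv ℝ w x v‖ := by conv_lhs => rw [e, norm_neg]
      _ ≤ ‖fderiv ℝ w x‖ * ‖v‖ := (fderiv ℝ w x).le_opNorm v
      _ ≤ 1 / 2 * ‖v‖ := by gcongr
  have h6 : ‖v‖ = 0 := le_antisymm (by linarith) (norm_nonneg v)
  intro i
  rw [norm_eq_zero.1 h6]
  rfl

end Vale.Agent.P088.H397
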