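import Vale.Agent.P088.H397.BInfX
import Vale.Agent.P088.H72.X.Defs2
import Vale.Agent.P088.H158.BMapE

/-!
# P088, arbitrary conformally flat base, row Y_INF
-/

open MeasureTheory Set Filter Topology
open scoped ContDiff Matrix

noncomputable section

namespace Vale.Agent.P088.H397

open Vale.Agent.P088.LR Vale.Agent.P088.LR.B Vale.Agent.P088.LR.CF Vale.Agent.P088.H639

/-- Row Y_INF. -/
theorem yinf (hhad : RowHAD) (hbd : BY.RowBD) (htopo : RowTOPO) : BY.RowINF := by
  intro n hn μ hμ
  obtain ⟨a₀, ha₀, hB⟩ := hbd hn μ hμ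
  refine ⟨a₀, ha₀, fun ρ D σ hσ hσ2 t ht hpos hSE hsm w₁ hw₁ hdet hnor hd1 hd2 => ?_⟩
  have hsym : ∀ x i j, t x i j = t x j i := fun x i j => by
    simpa using ((hpos x).1.apply i j).symm
  have hsc : ∀ x i j, sc σ x i j = σ x * dl i j := fun x i j => by
    simp [sc, dl, Matrix.one_apply]
  have hX : ∀ a, ContDiff ℝ ∞ (fun y : V n => y a + w₁ y a) := fun a =>
    (contDiff_apply ℝ ℝ a).add (contDiff_pi.1 hw₁ a)
  have hG : ∀ a i, ContDiff ℝ ∞ (pd i (fun y : V n => y a + w₁ y a)) := fun a i => by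
    have h := (hX a).fderiv_right (m := ∞) (by simp)
    exact h.clm_apply contDiff_const
  have hdσ : ∀ i j, ContDiff ℝ ∞ (fun x => t x i j - σ x * dl i j) := fun i j =>
    (ht i j).sub (hσ.mul contDiff_const)
  have hinv : ∀ x, ρ x = 0 → ∀ v : Fin n → ℝ,
      (∀ a, ∑ i, pd i (fun y : V n => y a + w₁ y a) x * v i = 0) → ∀ i, v i = 0 := by
    intro x hx v hv
    have h1 : (jm w₁ x).mulVec v = 0 := by
      funext a
      have := hv a
      simp only [Vale.Agent.P088.LR.B.H158.pd_H hw₁] at this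
      simpa [Matrix.mulVec, dotProduct] using this
    have h2 := Matrix.eq_zero_of_mulVec_eq_zero (hdet x hx) h1
    intro i
    rw [h2]
    rfl
  have key := infX hhad htopo D hσ ht hsym (G := fun a i => pd i (fun y : V n => y a + w₁ y a))
    hG hinv ?_ ?_ ?_
  · intro m
    obtain ⟨b, hb, he⟩ := key m
    exact ⟨b, hb, fun x i j => by rw [hsc]; exact he x i j⟩
  · intro i x hx
    refine hinv x hx (fun i => ∑ j, (t x i j - σ x * dl i j) * pd j ρ x) (fun a => ?_) i
    have h := hnor a x hx
    simp only [gr, hsc] at h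
    rw [← sub_eq_zero] at h
    rw [← h, ← Finset.sum_sub_distrib]
    refine Finset.sum_congr rfl fun i _ => ?_
    rw [← Finset.sum_sub_distrib, Finset.mul_sum]
    exact Finset.sum_congr rfl fun j _ => by ring
  · intro a m
    obtain ⟨r1, hr1, E1, hE1, h1⟩ := hd1 a m
    obtain ⟨r2, hr2, E2, hE2, h2⟩ := hd2 a m
    refine ⟨min r1 r2, lt_min hr1 hr2, fun x => E1 x - E2 x, hE1.sub hE2, fun x hx => ?_⟩
    have e1 := h1 x (hx.trans_le (min_le_left _ _))
    have e2 := h2 x (hx.trans_le (min_le_right _ _))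
    rw [mul_sub, ← e1, ← e2]
    unfold dr
    rw [← Finset.sum_sub_distrib]
    refine Finset.sum_congr rfl fun j _ => ?_
    have dA : DifferentiableAt ℝ (fun y => ∑ i, t y j i * pd i (fun y : V n => y a + w₁ y a) y) x :=
      ((ContDiff.sum fun i _ => (ht j i).mul (hG a i)).differentiable (by simp)).differentiableAt
    have hscs : ∀ i j, ContDiff ℝ ∞ (fun x => sc σ x i j) := fun i j => by
      simp only [hsc]
      exact hσ.mul contDiff_const
    have dB : DifferentiableAt ℝ
        (fun y => ∑ i, sc σ y j i * pd i (fun y : V n => y a + w₁ y a) y) x :=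
      ((ContDiff.sum fun i _ => (hscs j i).mul (hG a i)).differentiable
        (by simp)).differentiableAt
    have e : (fun y => ∑ i, (t y j i - σ y * dl j i) * pd i (fun y : V n => y a + w₁ y a) y) =
        fun y => (∑ i, t y j i * pd i (fun y : V n => y a + w₁ y a) y) -
          ∑ i, sc σ y j i * pd i (fun y : V n => y a + w₁ y a) y := by
      funext y
      rw [← Finset.sum_sub_distrib]
      exact Finset.sum_congr rfl fun i _ => by rw [hsc]; ring
    rw [e]
    unfold pd at dA dB ⊢
    have := fderiv_sub dA dB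
    rw [show (fun y => (∑ i, t y j i * fderiv ℝ (fun y : V n => y a + w₁ y a) y
        (Pi.single i 1)) - ∑ i, sc σ y j i * fderiv ℝ (fun y : V n => y a + w₁ y a) y
        (Pi.single i 1)) = (fun y => ∑ i, t y j i * fderiv ℝ (fun y : V n => y a + w₁ y a) y
        (Pi.single i 1)) - fun y => ∑ i, sc σ y j i * fderiv ℝ (fun y : V n => y a + w₁ y a) y
        (Pi.single i 1) from rfl, this]
    rfl
  · intro m b hb hs he ht1 x hx i j
    exact hB ρ D σ hσ hσ2 t ht hpos hSE hsm m b hb hs (fun x i j => by rw [hsc]; exact he x i j)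
      ht1 x hx i j

end Vale.Agent.P088.H397
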